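import Vale.Agent.P224.R2.H797.Unit
import Vale.Agent.P224.R2.H797.C.Rows
import Vale.Agent.P224.R2.H797.C.El
import Vale.Agent.P224.R2.H797.C.DF0

/-!
Certificate C: the identity and the pointwise inequality.
-/

namespace Vale.Agent.P224.R2.H797.C

open Vale.Agent.P224.UE Vale.Agent.P224.POS Vale.Agent.P224.PO Vale.Agent.P224.R2.H797
open scoped RealInnerProductSpace

noncomputable section

/-- the blocks with the multiplier `1` -/
def B1 : List BlkX := [⟨els0, 562949953421312, N0⟩,
  ⟨els1, 9007199254740992, N1⟩,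
  ⟨els2, 2251799813685248, N2⟩,
  ⟨els3, 1125899906842624, N3⟩]

/-- the blocks with the multiplier `rr` -/
def Br : List BlkX := [⟨els0, 1125899906842624, N4⟩,
  ⟨els1, 9007199254740992, N5⟩,
  ⟨els2, 4503599627370496, N6⟩,
  ⟨els3, 4503599627370496, N7⟩]

/-- the integers replacing the first four variables (not powers of two: the kernel hashes a numeral
by its last 64 bits) -/
def Ms : List Nat := [
  Nat.add (Nat.pow 2 75) 2150734988673156081,
  Nat.add (Nat.pow 2 886) 3180203775245190627,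
  Nat.add (Nat.pow 2 4567) 3805784976760624175,
  Nat.add (Nat.pow 2 22972) 2309444965962090481]

set_option maxRecDepth 100000 in
/-- **The identity**, checked by the kernel. -/
theorem idM : chkX Ms (PE.sb sbU P) 8 tabU (mulU B1 Br) = true := by
  decide +kernel

lemma hB1 : GoodX B1 :=
  (goodX_cons psd0 (goodX_cons psd1 (goodX_cons psd2 (goodX_cons psd3 goodX_nil))))

lemma hBr : GoodX Br :=
  (goodX_cons psd4 (goodX_cons psd5 (goodX_cons psd6 (goodX_cons psd7 goodX_nil))))

/-- **Positivity** of the left side on pair data with a unit vector. -/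
theorem pos {E : Type*} [NormedAddCommGroup E] [InnerProductSpace ℝ E] {v x N y w : E}
    (hv : ‖v‖ = 1) (hx : ‖x‖ = 1) (hN : ‖N‖ = 1) (hy : ‖y‖ = 1) (hw : ‖w‖ = 1)
    (hxN : ⟪x, N⟫ = 0) (hyw : ⟪y, w⟫ = 0) (hs : ⟪x, y⟫ < 1) :
    0 ≤ PE.ev (vh (dv x N y w v)) P :=
  nonneg_of_chkU 8 (by norm_num) idM rfl hB1 hBr hv hx hN hy hw hxN hyw hs

/-- **The pointwise inequality of the certificate.** -/
theorem hpos {E : Type*} [NormedAddCommGroup E] [InnerProductSpace ℝ E] (v x N y w : E)
    (hv : ‖v‖ = 1) (hx : ‖x‖ = 1) (hN : ‖N‖ = 1) (hy : ‖y‖ = 1) (hw : ‖w‖ = 1)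
    (hxN : ⟪x, N⟫ = 0) (hyw : ⟪y, w⟫ = 0) (hs : ⟪x, y⟫ < 1) :
    0 ≤ Vale.Agent.P224.UE.W9 (147403277598720 / 147403277598720) (86149139080256 / 147403277598720) (-149096245611840 / 147403277598720) (0 / 147403277598720) (28268138560608 / 147403277598720) (15272070786672 / 147403277598720) (0 / 147403277598720) (-12617167392984 / 147403277598720) (0 / 147403277598720) (dv x N y w v)
      + hsum 3 (rlH 147403277598720 rows) (dv x N y w v) + XF (0 / 147403277598720) (0 / 147403277598720) (0 / 147403277598720) (dv x N y w v)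
      + (0 / 147403277598720) * (dv x N y w v) 0 ^ 3 :=
  pos_of hs (pos hv hx hN hy hw hxN hyw hs)

end

end Vale.Agent.P224.R2.H797.C
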