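import Vale.Agent.P224.R2.H797.C.Rows
import Vale.Agent.P224.R2.H797.LawE

/-!
Certificate C: the law is negative for lengths of the mean normal between `79/1000` and `3/10`.
-/

namespace Vale.Agent.P224.R2.H797.C

open Vale.Agent.P224.UE Vale.Agent.P224.POS Vale.Agent.P224.PO Vale.Agent.P224.R2.H178
  Vale.Agent.P224.R2.H797

/-- the value of the rows -/
noncomputable def qv : PE := PE.add (PE.add (PE.c (-175303163399760)) (PE.mul (PE.c (131182006745632)) (PE.v 0)))
  (PE.mul (PE.c (-32961166119248)) (PE.v 1))

set_option maxRecDepth 100000 in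
lemma qv_chk : chk [] (PE.sub (lvU 3 rows) qv) = true := by decide +kernel

lemma hval_rows (ν ρ : ℝ) : hvalU 3 (rlH 147403277598720 rows) ν ρ
    = (-(66402713409 / 223338299392)) + (4099437710801 / 18425409699840) * ν + (-(2060072882453 / 36850819399680)) * ρ := by
  rw [hvalU_eq (by norm_num) qv_chk]
  unfold qv
  simp only [PE.ev_add, PE.ev_mul, PE.ev_c, PE.ev_v]
  have e0 : ([ν, ρ] : List ℝ).getD 0 0 = ν := rfl
  have e1 : ([ν, ρ] : List ℝ).getD 1 0 = ρ := rfl
  rw [e0, e1]
  push_cast
  ring

/-- **The law is negative.** -/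
theorem hneg {ν ρ : ℝ} (h1 : (79 / 1000) ≤ ν) (h2 : ν ≤ (3 / 10)) (hr1 : ν ^ 2 ≤ ρ) (hr2 : ρ ≤ 1) :
    hvalU 3 (rlH 147403277598720 rows) ν ρ ≤ 0 ∧
      0 + ((147403277598720 / 147403277598720) + (0 / 147403277598720) + (-149096245611840 / 147403277598720) * ν + (86149139080256 / 147403277598720) * ν ^ 2 + ((28268138560608 / 147403277598720) + (-12617167392984 / 147403277598720) * ν) * ρ + ((15272070786672 / 147403277598720) + (0 / 147403277598720)) * ν ^ 2
        + (0 / 147403277598720) * ((1 - ρ) / 4)) + 330797 / 100000 * hvalU 3 (rlH 147403277598720 rows) ν ρ < 0 := by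
  rw [hval_rows]
  have ha := sub_nonneg.2 h1
  have hb := sub_nonneg.2 h2
  have hab := mul_nonneg ha hb
  have haa := mul_nonneg hab ha
  have hbb := mul_nonneg hab hb
  constructor
  · have e1 : (-(66402713409 / 223338299392)) + (4099437710801 / 18425409699840) * ν + (-(2060072882453 / 36850819399680)) * ν ^ 2 < 0 := by
      nlinarith
    have e2 : (-(66402713409 / 223338299392)) + (4099437710801 / 18425409699840) * ν + (-(2060072882453 / 36850819399680)) * 1 < 0 := by
      linarith
    exact (aff_neg e1 e2 hr1 hr2).le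
  · have e1 : ((368011551643027 / 22333829939200000) + (-(507621373728161603 / 1842540969984000000)) * ν + (6338825616683 / 9212704849920) * ν ^ 2) + ((25237534718394959 / 3685081939968000000) + (-(47792300731 / 558345748480)) * ν) * ν ^ 2 < 0 := by
      nlinarith
    have e2 : ((368011551643027 / 22333829939200000) + (-(507621373728161603 / 1842540969984000000)) * ν + (6338825616683 / 9212704849920) * ν ^ 2) + ((25237534718394959 / 3685081939968000000) + (-(47792300731 / 558345748480)) * ν) * 1 < 0 := by
      nlinarith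
    have e3 := aff_neg e1 e2 hr1 hr2
    refine lt_of_eq_of_lt ?_ e3
    ring

end Vale.Agent.P224.R2.H797.C
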